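import Mathlib

set_option autoImplicit false

open MeasureTheory Set Filter Topology Real

namespace Crest.Agent.R280

/-- Averaging against one exponential variable with coefficient `b`. -/
noncomputable def L (b : ℝ) (φ : ℝ → ℝ) (t : ℝ) : ℝ :=
  ∫ x in Ioi (0 : ℝ), φ (t + b * x) * exp (-x)

/-- The unit step. -/
noncomputable def step (t : ℝ) : ℝ := if 0 < t then 1 else 0

lemma measurable_step : Measurable step := by
  unfold step
  exact Measurable.ite measurableSet_Ioi measurable_const measurable_const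

lemma step_nonneg (t : ℝ) : 0 ≤ step t := by unfold step; split_ifs <;> norm_num
lemma step_le_one (t : ℝ) : step t ≤ 1 := by unfold step; split_ifs <;> norm_num

lemma integrableOn_L {φ : ℝ → ℝ} (hm : Measurable φ) {C : ℝ} (hb : ∀ t, |φ t| ≤ C) (b t : ℝ) :
    IntegrableOn (fun x => φ (t + b * x) * exp (-x)) (Ioi (0 : ℝ)) := by
  have h1 : IntegrableOn (fun x => C * exp (-x)) (Ioi (0 : ℝ)) :=
    (integrableOn_exp_neg_Ioi 0).const_mul C
  refine Integrable.mono' h1 ?_ ?_
  · exact (by fun_prop : Measurable (fun x => φ (t + b * x) * exp (-x))).aestronglyMeasurable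
  · refine Eventually.of_forall fun x => ?_
    rw [Real.norm_eq_abs, abs_mul, abs_of_pos (exp_pos _)]
    exact mul_le_mul_of_nonneg_right (hb _) (exp_pos _).le

lemma L_const (b c t : ℝ) : L b (fun _ => c) t = c := by
  unfold L
  rw [integral_const_mul, integral_exp_neg_Ioi_zero, mul_one]

lemma L_zero (φ : ℝ → ℝ) : L 0 φ = φ := by
  funext t
  unfold L
  simp only [zero_mul, add_zero]
  rw [integral_const_mul, integral_exp_neg_Ioi_zero, mul_one]

lemma abs_L_le {φ : ℝ → ℝ} {C : ℝ} (hb : ∀ t, |φ t| ≤ C) (b t : ℝ) :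
    |L b φ t| ≤ C := by
  have h1 : IntegrableOn (fun x => C * exp (-x)) (Ioi (0 : ℝ)) :=
    (integrableOn_exp_neg_Ioi 0).const_mul C
  have h2 : ‖∫ x in Ioi (0 : ℝ), φ (t + b * x) * exp (-x)‖ ≤ ∫ x in Ioi (0 : ℝ), C * exp (-x) := by
    refine norm_integral_le_of_norm_le h1 (Eventually.of_forall fun x => ?_)
    rw [Real.norm_eq_abs, abs_mul, abs_of_pos (exp_pos _)]
    exact mul_le_mul_of_nonneg_right (hb _) (exp_pos _).le
  rw [integral_const_mul, integral_exp_neg_Ioi_zero, mul_one] at h2
  exact h2

lemma measurable_L {φ : ℝ → ℝ} (hm : Measurable φ) (b : ℝ) : Measurable (L b φ) := by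
  unfold L
  have : StronglyMeasurable (Function.uncurry fun (t x : ℝ) => φ (t + b * x) * exp (-x)) := by
    apply Measurable.stronglyMeasurable
    unfold Function.uncurry
    fun_prop
  exact (this.integral_prod_right (ν := volume.restrict (Ioi (0 : ℝ)))).measurable

/-- shift of an integral over a half line -/
lemma integral_Ioi_shift (f : ℝ → ℝ) (t : ℝ) :
    ∫ x in Ioi (0 : ℝ), f (t + x) = ∫ s in Ioi t, f s := by
  rw [← integral_indicator measurableSet_Ioi, ← integral_indicator measurableSet_Ioi,
    ← integral_add_left_eq_self (fun s => (Ioi t).indicator f s) t]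
  congr 1
  funext x
  by_cases hx : 0 < x
  · rw [indicator_of_mem (mem_Ioi.2 hx), indicator_of_mem (mem_Ioi.2 (by linarith))]
  · rw [indicator_of_notMem (by simpa using hx), indicator_of_notMem (by simpa using hx)]

lemma L_eq_pos (φ : ℝ → ℝ) {b : ℝ} (hb : 0 < b) (t : ℝ) :
    L b φ t = b⁻¹ * exp (t / b) * ∫ s in Ioi t, φ s * exp (-(s / b)) := by
  unfold L
  have h1 := integral_comp_mul_left_Ioi (fun y => φ (t + y) * exp (-(y / b))) 0 hb
  have h2 : (fun x => φ (t + b * x) * exp (-(b * x / b))) = fun x => φ (t + b * x) * exp (-x) := by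
    funext x
    rw [mul_div_cancel_left₀ _ hb.ne']
  simp only [mul_zero, smul_eq_mul] at h1
  rw [h2] at h1
  rw [h1, ← integral_Ioi_shift (fun s => φ s * exp (-(s / b))) t, mul_assoc]
  congr 1
  rw [← integral_const_mul]
  congr 1
  funext y
  rw [mul_left_comm, ← exp_add]
  congr 2
  field_simp
  ring

lemma hasDerivAt_L_pos {φ : ℝ → ℝ} (hc : Continuous φ) {C : ℝ} (hC : ∀ t, |φ t| ≤ C) {b : ℝ}
    (hb : 0 < b) (t : ℝ) : HasDerivAt (L b φ) ((L b φ t - φ t) / b) t := by
  set k : ℝ → ℝ := fun s => φ s * exp (-(s / b)) with hk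
  have hkc : Continuous k := by fun_prop
  have hki : ∀ c, IntegrableOn k (Ioi c) := by
    intro c
    have h1 : IntegrableOn (fun x => C * exp ((-b⁻¹) * x)) (Ioi c) :=
      (integrableOn_exp_mul_Ioi (by simpa using hb) c).const_mul C
    refine Integrable.mono' h1 hkc.aestronglyMeasurable (Eventually.of_forall fun x => ?_)
    rw [Real.norm_eq_abs, hk, abs_mul, abs_of_pos (exp_pos _)]
    have : -(x / b) = -b⁻¹ * x := by ring
    rw [this]
    exact mul_le_mul_of_nonneg_right (hC _) (exp_pos _).le
  have hG : ∀ u, ∫ s in Ioi u, k s = (∫ s in Ioi 0, k s) - ∫ s in (0 : ℝ)..u, k s := by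
    intro u
    have := intervalIntegral.integral_interval_add_Ioi (hki 0) (hki u)
    linarith
  have hd : HasDerivAt (fun u => ∫ s in Ioi u, k s) (-k t) t := by
    have h1 : HasDerivAt (fun u => ∫ s in (0 : ℝ)..u, k s) (k t) t :=
      intervalIntegral.integral_hasDerivAt_right (hkc.intervalIntegrable _ _)
        (hkc.stronglyMeasurableAtFilter _ _) hkc.continuousAt
    have h2 := h1.const_sub (∫ s in Ioi 0, k s)
    simpa only [← hG] using h2
  have he : HasDerivAt (fun u => b⁻¹ * exp (u / b)) (b⁻¹ * (exp (t / b) * (1 / b))) t :=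
    ((hasDerivAt_id t).div_const b).exp.const_mul _
  have h3 := he.mul hd
  have h4 : L b φ = fun u => b⁻¹ * exp (u / b) * ∫ s in Ioi u, k s := by
    funext u; exact L_eq_pos φ hb u
  have h5 : L b φ t = b⁻¹ * exp (t / b) * ∫ s in Ioi t, k s := L_eq_pos φ hb t
  rw [h5]
  rw [h4]
  refine HasDerivAt.congr_deriv h3 ?_
  have : exp (t / b) * exp (-(t / b)) = 1 := by rw [← exp_add]; simp
  have hkt : k t = φ t * exp (-(t / b)) := rfl
  rw [hkt]
  field_simp
  linear_combination (-(b * φ t)) * this

lemma L_neg (φ : ℝ → ℝ) (b t : ℝ) : L b φ t = L (-b) (fun s => φ (-s)) (-t) := by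
  unfold L
  congr 1
  funext x
  congr 2
  ring

lemma hasDerivAt_L {φ : ℝ → ℝ} (hc : Continuous φ) {C : ℝ} (hC : ∀ t, |φ t| ≤ C) {b : ℝ}
    (hb : b ≠ 0) (t : ℝ) : HasDerivAt (L b φ) ((L b φ t - φ t) / b) t := by
  rcases lt_or_gt_of_ne hb with hb | hb
  · have h1 := hasDerivAt_L_pos (φ := fun s => φ (-s)) (by fun_prop) (fun s => hC (-s))
      (neg_pos.2 hb) (-t)
    have h2 := h1.comp t (hasDerivAt_neg t)
    have h3 : L b φ = (L (-b) fun s => φ (-s)) ∘ Neg.neg := by
      funext u; exact L_neg φ b u
    rw [L_neg φ b t]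
    rw [h3]
    refine HasDerivAt.congr_deriv h2 ?_
    rw [neg_neg]
    field_simp
  · exact hasDerivAt_L_pos hc hC hb t

/-- four point inequality for concave functions -/
lemma four_point {f : ℝ → ℝ} (hf : ConcaveOn ℝ univ f) {p q d : ℝ} (hpq : p ≤ q) (hd : 0 ≤ d) :
    f p + f (q + d) ≤ f (p + d) + f q := by
  rcases eq_or_lt_of_le (add_nonneg (sub_nonneg.2 hpq) hd) with h | h
  · have h1 : q = p := by linarith
    have h2 : d = 0 := by linarith
    subst h1; subst h2; simp
  · set D := q - p + d with hD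
    have ha : 0 ≤ d / D := div_nonneg hd h.le
    have hb : 0 ≤ (q - p) / D := div_nonneg (sub_nonneg.2 hpq) h.le
    have hab : (q - p) / D + d / D = 1 := by field_simp; ring
    have h1 := hf.2 (mem_univ p) (mem_univ (q + d)) hb ha hab
    have h2 := hf.2 (mem_univ p) (mem_univ (q + d)) ha hb (by linarith)
    have e1 : ((q - p) / D) • p + (d / D) • (q + d) = p + d := by
      simp only [smul_eq_mul]; field_simp; ring
    have e2 : (d / D) • p + ((q - p) / D) • (q + d) = q := by
      simp only [smul_eq_mul]; field_simp; ring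
    rw [e1] at h1
    rw [e2] at h2
    simp only [smul_eq_mul] at h1 h2
    have e3 : f p = ((q - p) / D + d / D) * f p := by rw [hab, one_mul]
    have e4 : f (q + d) = ((q - p) / D + d / D) * f (q + d) := by rw [hab, one_mul]
    nlinarith

/-- The class of "distribution functions" `t ↦ P(S + t > 0)` we work with; `m` is the mean of `S`. -/
structure Cls (m : ℝ) (U : ℝ → ℝ) : Prop where
  cont : Continuous U
  pos : ∀ t, 0 < U t
  le_one : ∀ t, U t ≤ 1
  mono : Monotone U
  conc : ConcaveOn ℝ univ (fun t => log (U t))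
  bot : Tendsto U atBot (𝓝 0)
  top : Tendsto U atTop (𝓝 1)
  integ : Integrable (fun t => U t - step t)
  mean : ∫ t, (U t - step t) = m

lemma Cls.abs_le {m : ℝ} {U : ℝ → ℝ} (h : Cls m U) (t : ℝ) : |U t| ≤ 1 := by
  rw [abs_of_pos (h.pos t)]; exact h.le_one t

lemma Cls.four {m : ℝ} {U : ℝ → ℝ} (h : Cls m U) {p q d : ℝ} (hpq : p ≤ q) (hd : 0 ≤ d) :
    U p * U (q + d) ≤ U (p + d) * U q := by
  have h1 := four_point h.conc hpq hd
  rw [← log_mul (h.pos _).ne' (h.pos _).ne', ← log_mul (h.pos _).ne' (h.pos _).ne'] at h1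
  exact (log_le_log_iff (mul_pos (h.pos _) (h.pos _)) (mul_pos (h.pos _) (h.pos _))).1 h1

lemma Cls.L_pos {m : ℝ} {U : ℝ → ℝ} (h : Cls m U) (b t : ℝ) : 0 < L b U t := by
  unfold L
  rw [setIntegral_pos_iff_support_of_nonneg_ae
    (Eventually.of_forall fun x => (mul_pos (h.pos _) (exp_pos _)).le)
    (integrableOn_L h.cont.measurable h.abs_le b t)]
  have : (Function.support fun x => U (t + b * x) * exp (-x)) = univ := by
    ext x; simp [(h.pos _).ne']
  rw [this]
  simp

lemma L_mono_fun {φ ψ : ℝ → ℝ} (hφ : Measurable φ) (hψ : Measurable ψ) {C D : ℝ}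
    (hC : ∀ t, |φ t| ≤ C) (hD : ∀ t, |ψ t| ≤ D) {b b' s t c c' : ℝ}
    (hle : ∀ x, 0 < x → c * φ (s + b * x) ≤ c' * ψ (t + b' * x)) :
    c * L b φ s ≤ c' * L b' ψ t := by
  unfold L
  rw [← integral_const_mul, ← integral_const_mul]
  refine setIntegral_mono_on ((integrableOn_L hφ hC b s).const_mul c)
    ((integrableOn_L hψ hD b' t).const_mul c') measurableSet_Ioi fun x hx => ?_
  rw [← mul_assoc, ← mul_assoc]
  exact mul_le_mul_of_nonneg_right (hle x hx) (exp_pos _).le

lemma tendsto_L {φ : ℝ → ℝ} (hm : Measurable φ) {C : ℝ} (hC : ∀ t, |φ t| ≤ C) (b : ℝ)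
    {l : Filter ℝ} [l.IsCountablyGenerated] {c : ℝ}
    (hl : ∀ y, Tendsto (fun t => φ (t + y)) l (𝓝 c)) : Tendsto (L b φ) l (𝓝 c) := by
  have h1 : IntegrableOn (fun x => C * exp (-x)) (Ioi (0 : ℝ)) :=
    (integrableOn_exp_neg_Ioi 0).const_mul C
  have := tendsto_integral_filter_of_dominated_convergence (μ := volume.restrict (Ioi (0 : ℝ)))
    (l := l) (F := fun t x => φ (t + b * x) * exp (-x)) (f := fun x => c * exp (-x))
    (fun x => C * exp (-x))
    (Eventually.of_forall fun t =>
      (by fun_prop : Measurable (fun x => φ (t + b * x) * exp (-x))).aestronglyMeasurable)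
    (Eventually.of_forall fun t => Eventually.of_forall fun x => by
      rw [Real.norm_eq_abs, abs_mul, abs_of_pos (exp_pos _)]
      exact mul_le_mul_of_nonneg_right (hC _) (exp_pos _).le)
    h1 (Eventually.of_forall fun x => (hl (b * x)).mul_const _)
  rw [integral_const_mul, integral_exp_neg_Ioi_zero, mul_one] at this
  exact this

/-- A monotone differentiable function with limits `0`, `1` has integrable derivative of total
integral one. -/
lemma integrable_deriv_of_nonneg {g g' : ℝ → ℝ} (hd : ∀ t, HasDerivAt g (g' t) t)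
    (hn : ∀ t, 0 ≤ g' t) (hb : Tendsto g atBot (𝓝 0)) (ht : Tendsto g atTop (𝓝 1)) :
    Integrable g' ∧ ∫ t, g' t = 1 := by
  have h1 : IntegrableOn g' (Ioi 0) :=
    integrableOn_Ioi_deriv_of_nonneg' (fun x _ => hd x) (fun x _ => hn x) ht
  have h2 : IntegrableOn (fun x => g' (-x)) (Ioi 0) := by
    refine integrableOn_Ioi_deriv_of_nonneg' (g := fun x => -g (-x)) (l := 0) (fun x _ => ?_)
      (fun x _ => hn _) ?_
    · have := ((hd (-x)).comp x (hasDerivAt_neg x)).neg
      refine HasDerivAt.congr_deriv this ?_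
      simp
    · have := (hb.comp tendsto_neg_atTop_atBot).neg
      simpa using this
  have h3 : IntegrableOn g' (Iic 0) := by
    have h4 : IntegrableOn (fun x => g' (-x)) (Ici 0) := (integrableOn_Ici_iff_integrableOn_Ioi).2 h2
    have h5 := (Measure.measurePreserving_neg (volume : Measure ℝ)).integrableOn_comp_preimage
      (Homeomorph.neg ℝ).measurableEmbedding (f := g') (s := Iic 0)
    apply h5.1
    have : (Neg.neg ⁻¹' Iic (0 : ℝ)) = Ici 0 := by ext x; simp
    rw [this]
    exact h4
  have h6 : Integrable g' := by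
    rw [← integrableOn_univ, ← Iic_union_Ioi (a := (0 : ℝ))]
    exact h3.union h1
  refine ⟨h6, ?_⟩
  rw [integral_of_hasDerivAt_of_tendsto hd h6 hb ht]
  simp

theorem Cls.L {m : ℝ} {U : ℝ → ℝ} (h : Cls m U) (b : ℝ) : Cls (m + b) (L b U) := by
  rcases eq_or_ne b 0 with rfl | hb
  · rw [L_zero, add_zero]; exact h
  have hm := h.cont.measurable
  have hd := hasDerivAt_L h.cont h.abs_le hb
  have hpos := h.L_pos b
  have hbot : Tendsto (R280.L b U) atBot (𝓝 0) :=
    tendsto_L hm h.abs_le b fun y => h.bot.comp (tendsto_atBot_add_const_right _ _ tendsto_id)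
  have htop : Tendsto (R280.L b U) atTop (𝓝 1) :=
    tendsto_L hm h.abs_le b fun y => h.top.comp (tendsto_atTop_add_const_right _ _ tendsto_id)
  have hnn : ∀ t, 0 ≤ (R280.L b U t - U t) / b := by
    intro t
    have e : U t = R280.L 0 U t := by rw [L_zero]
    rcases lt_or_gt_of_ne hb with hb | hb
    · apply div_nonneg_of_nonpos _ hb.le
      have := L_mono_fun hm hm h.abs_le h.abs_le (b := b) (b' := 0) (s := t) (t := t) (c := 1)
        (c' := 1) fun x hx => by
          simp only [one_mul]
          exact h.mono (by nlinarith)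
      linarith
    · apply div_nonneg _ hb.le
      have := L_mono_fun hm hm h.abs_le h.abs_le (b := 0) (b' := b) (s := t) (t := t) (c := 1)
        (c' := 1) fun x hx => by
          simp only [one_mul]
          exact h.mono (by nlinarith)
      linarith
  obtain ⟨hi, hv⟩ := integrable_deriv_of_nonneg hd hnn hbot htop
  have hsplit : (fun t => R280.L b U t - step t) =
      fun t => (U t - step t) + b * ((R280.L b U t - U t) / b) := by
    funext t; field_simp; ring
  refine ⟨continuous_iff_continuousAt.2 fun t => (hd t).continuousAt, hpos,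
    fun t => (le_abs_self _).trans (abs_L_le h.abs_le b t), ?_, ?_, hbot, htop, ?_, ?_⟩
  · intro s t hst
    have := L_mono_fun hm hm h.abs_le h.abs_le (b := b) (b' := b) (s := s) (t := t) (c := 1)
      (c' := 1) fun x hx => by
        simp only [one_mul]
        exact h.mono (by linarith)
    linarith
  · have hd2 : ∀ t, HasDerivAt (fun t => log (R280.L b U t))
        ((R280.L b U t - U t) / b / R280.L b U t) t := fun t => (hd t).log (hpos t).ne'
    apply Antitone.concaveOn_univ_of_deriv (fun t => (hd2 t).differentiableAt)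
    intro x y hxy
    rw [(hd2 x).deriv, (hd2 y).deriv]
    have hx := hpos x
    have hy := hpos y
    rw [div_le_div_iff₀ hy hx]
    rcases lt_or_gt_of_ne hb with hb | hb
    · have := L_mono_fun hm hm h.abs_le h.abs_le (b := b) (b' := b) (s := x) (t := y) (c := U y)
        (c' := U x) fun r hr => by
          have := h.four (p := x + b * r) (q := y + b * r) (d := -(b * r)) (by linarith)
            (by nlinarith)
          simp only [add_neg_cancel_right] at this
          linarith
      have e : (R280.L b U x - U x) / b * R280.L b U y - (R280.L b U y - U y) / b * R280.L b U x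
          = (U x * R280.L b U y - U y * R280.L b U x) / (-b) := by field_simp; ring
      have : 0 ≤ (U x * R280.L b U y - U y * R280.L b U x) / (-b) :=
        div_nonneg (by linarith) (by linarith)
      linarith
    · have := L_mono_fun hm hm h.abs_le h.abs_le (b := b) (b' := b) (s := y) (t := x) (c := U x)
        (c' := U y) fun r hr => by
          have := h.four (p := x) (q := y) (d := b * r) hxy (by positivity)
          linarith
      have e : (R280.L b U x - U x) / b * R280.L b U y - (R280.L b U y - U y) / b * R280.L b U x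
          = (U y * R280.L b U x - U x * R280.L b U y) / b := by field_simp; ring
      have : 0 ≤ (U y * R280.L b U x - U x * R280.L b U y) / b :=
        div_nonneg (by linarith) (by linarith)
      linarith
  · rw [hsplit]; exact h.integ.add (hi.const_mul b)
  · rw [hsplit, integral_add h.integ (hi.const_mul b), integral_const_mul, hv, h.mean, mul_one]

end Crest.Agent.R280
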