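import Mathlib
import Crest.Agent.R280.Ops

set_option autoImplicit false

open MeasureTheory Set Filter Topology Real

namespace Crest.Agent.R280

/-- `t ↦ P(a X - τ + t > 0)` for a mean-one exponential `X` and `a > 0`. -/
noncomputable def E (a τ t : ℝ) : ℝ := min 1 (exp ((t - τ) / a))

lemma continuous_E (a τ : ℝ) : Continuous (E a τ) := by unfold E; fun_prop

lemma E_pos (a τ t : ℝ) : 0 < E a τ t := lt_min one_pos (exp_pos _)
lemma E_le_one (a τ t : ℝ) : E a τ t ≤ 1 := min_le_left _ _
lemma E_le_exp (a τ t : ℝ) : E a τ t ≤ exp ((t - τ) / a) := min_le_right _ _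
lemma abs_E_le (a τ t : ℝ) : |E a τ t| ≤ 1 := by
  rw [abs_of_pos (E_pos a τ t)]; exact E_le_one a τ t

lemma E_of_le {a τ t : ℝ} (ha : 0 < a) (h : t ≤ τ) : E a τ t = exp ((t - τ) / a) := by
  unfold E
  apply min_eq_right
  rw [exp_le_one_iff]
  exact div_nonpos_of_nonpos_of_nonneg (by linarith) ha.le

lemma E_of_ge {a τ t : ℝ} (ha : 0 < a) (h : τ ≤ t) : E a τ t = 1 := by
  unfold E
  apply min_eq_left
  rw [one_le_exp_iff]
  exact div_nonneg (by linarith) ha.le

lemma E_anti {a : ℝ} (ha : 0 < a) {τ τ' : ℝ} (h : τ ≤ τ') (t : ℝ) : E a τ' t ≤ E a τ t := by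
  unfold E
  apply min_le_min_left
  rw [exp_le_exp]
  exact div_le_div_of_nonneg_right (by linarith) ha.le

lemma step_shift (τ : ℝ) :
    Integrable (fun t => step (t - τ) - step t) ∧ ∫ t, (step (t - τ) - step t) = -τ := by
  rcases le_total 0 τ with h | h
  · have e : (fun t => step (t - τ) - step t) = fun t => -(Ioc 0 τ).indicator (fun _ => (1 : ℝ)) t := by
      funext t
      unfold step
      by_cases h1 : 0 < t <;> by_cases h2 : t ≤ τ
      · rw [indicator_of_mem (mem_Ioc.2 ⟨h1, h2⟩), if_neg (by linarith), if_pos h1]; simp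
      · rw [indicator_of_notMem (by simp [h1, h2]), if_pos (by linarith), if_pos h1]; simp
      · rw [indicator_of_notMem (by simp [h1, h2]), if_neg (by linarith), if_neg h1]; simp
      · exfalso; linarith
    rw [e]
    refine ⟨((integrable_indicator_iff measurableSet_Ioc).2 (by simp)).neg, ?_⟩
    rw [integral_neg, integral_indicator measurableSet_Ioc]
    simp [h]
  · have e : (fun t => step (t - τ) - step t) = fun t => (Ioc τ 0).indicator (fun _ => (1 : ℝ)) t := by
      funext t
      unfold step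
      by_cases h1 : τ < t <;> by_cases h2 : t ≤ 0
      · rw [indicator_of_mem (mem_Ioc.2 ⟨h1, h2⟩), if_pos (by linarith), if_neg (by linarith)]; simp
      · rw [indicator_of_notMem (by simp [h1, h2]), if_pos (by linarith), if_pos (by linarith)]; simp
      · rw [indicator_of_notMem (by simp [h1, h2]), if_neg (by linarith), if_neg (by linarith)]; simp
      · exfalso; linarith
    rw [e]
    refine ⟨((integrable_indicator_iff measurableSet_Ioc).2 (by simp)), ?_⟩
    rw [integral_indicator measurableSet_Ioc]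
    simp [h]

lemma E_mean {a : ℝ} (ha : 0 < a) (τ : ℝ) :
    Integrable (fun t => E a τ t - step t) ∧ ∫ t, (E a τ t - step t) = a - τ := by
  have e : (fun t => E a τ t - step t) = fun t =>
      (Iic τ).indicator (fun t => exp (-(τ / a)) * exp (a⁻¹ * t)) t + (step (t - τ) - step t) := by
    funext t
    by_cases h : t ≤ τ
    · rw [indicator_of_mem (mem_Iic.2 h), E_of_le ha h, ← exp_add]
      have : step (t - τ) = 0 := by unfold step; rw [if_neg (by linarith)]
      rw [this]
      have : (t - τ) / a = -(τ / a) + a⁻¹ * t := by ring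
      rw [this]; ring
    · rw [indicator_of_notMem (by simpa using h), E_of_ge ha (by linarith)]
      have : step (t - τ) = 1 := by unfold step; rw [if_pos (by linarith)]
      rw [this]; ring
  have hi : Integrable ((Iic τ).indicator (fun t => exp (-(τ / a)) * exp (a⁻¹ * t))) :=
    (integrable_indicator_iff measurableSet_Iic).2
      ((integrableOn_exp_mul_Iic (inv_pos.2 ha) τ).const_mul _)
  rw [e]
  refine ⟨hi.add (step_shift τ).1, ?_⟩
  rw [integral_add hi (step_shift τ).1, (step_shift τ).2, integral_indicator measurableSet_Iic,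
    integral_const_mul, integral_exp_mul_Iic (inv_pos.2 ha)]
  have : exp (-(τ / a)) * exp (a⁻¹ * τ) = 1 := by
    rw [← exp_add]; have : -(τ / a) + a⁻¹ * τ = 0 := by ring
    rw [this, exp_zero]
  have e2 : exp (-(τ / a)) * (exp (a⁻¹ * τ) / a⁻¹) = a := by
    rw [← mul_div_assoc, this]; simp
  rw [e2]; ring

lemma cls_E {a : ℝ} (ha : 0 < a) : Cls a (E a 0) := by
  refine ⟨continuous_E a 0, E_pos a 0, E_le_one a 0, ?_, ?_, ?_, ?_, (E_mean ha 0).1, ?_⟩
  · intro s t hst
    unfold E
    apply min_le_min_left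
    rw [exp_le_exp]
    exact div_le_div_of_nonneg_right (by linarith) ha.le
  · have e : (fun t => log (E a 0 t)) = (fun _ : ℝ => (0 : ℝ)) ⊓ (fun t => a⁻¹ * t) := by
      funext t
      simp only [Pi.inf_apply]
      rcases le_total t 0 with h | h
      · rw [E_of_le ha h, log_exp, min_eq_right (mul_nonpos_of_nonneg_of_nonpos (inv_pos.2 ha).le h)]
        ring
      · rw [E_of_ge ha h, log_one, min_eq_left (mul_nonneg (inv_pos.2 ha).le h)]
    rw [e]
    refine (concaveOn_const 0 convex_univ).inf ?_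
    exact (concaveOn_id convex_univ).smul (inv_pos.2 ha).le
  · have h1 : Tendsto (fun t => exp ((t - 0) / a)) atBot (𝓝 0) := by
      refine tendsto_exp_atBot.comp ?_
      exact Tendsto.atBot_div_const ha (by simp only [sub_zero]; exact tendsto_id)
    exact squeeze_zero (fun t => (E_pos a 0 t).le) (E_le_exp a 0) h1
  · refine tendsto_const_nhds.congr' ?_
    filter_upwards [eventually_ge_atTop 0] with t ht
    exact (E_of_ge ha ht).symm
  · rw [(E_mean ha 0).2, sub_zero]

lemma abs_step_le (t : ℝ) : |step t| ≤ 1 := by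
  rw [abs_of_nonneg (step_nonneg t)]; exact step_le_one t

lemma L_step {a : ℝ} (ha : 0 < a) : L a step = E a 0 := by
  funext t
  unfold L
  rcases le_total t 0 with h | h
  · rw [E_of_le ha h]
    have h0 : 0 ≤ -t / a := div_nonneg (by linarith) ha.le
    have e : ∀ x ∈ Ioi (0 : ℝ), step (t + a * x) * exp (-x) =
        (Ioi (-t / a)).indicator (fun x => exp (-x)) x := by
      intro x _
      unfold step
      by_cases hx : -t / a < x
      · have : 0 < t + a * x := by rw [div_lt_iff₀ ha] at hx; linarith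
        rw [if_pos this, indicator_of_mem (mem_Ioi.2 hx), one_mul]
      · have : ¬ 0 < t + a * x := by rw [div_lt_iff₀ ha] at hx; linarith
        rw [if_neg this, indicator_of_notMem (by simpa using hx), zero_mul]
    rw [setIntegral_congr_fun measurableSet_Ioi e, setIntegral_indicator measurableSet_Ioi,
      inter_eq_right.2 (Ioi_subset_Ioi h0), integral_exp_neg_Ioi]
    congr 1; ring
  · rw [E_of_ge ha h]
    have e : ∀ x ∈ Ioi (0 : ℝ), step (t + a * x) * exp (-x) = exp (-x) := by
      intro x hx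
      unfold step
      have : 0 < t + a * x := by have := mul_pos ha (mem_Ioi.1 hx); linarith
      rw [if_pos this, one_mul]
    rw [setIntegral_congr_fun measurableSet_Ioi e, integral_exp_neg_Ioi_zero]

lemma int_zexp {r β : ℝ} (hr : 0 < r) (hβ : 0 ≤ β) :
    IntegrableOn (fun z => z * exp (-(r * z))) (Ioi β) ∧
      ∫ z in Ioi β, z * exp (-(r * z)) = (β / r + 1 / r ^ 2) * exp (-(r * β)) := by
  have hd : ∀ z ∈ Ici β, HasDerivAt (fun z => -((z / r + 1 / r ^ 2) * exp (-(r * z))))
      (z * exp (-(r * z))) z := by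
    intro z _
    have h1 : HasDerivAt (fun z => z / r + 1 / r ^ 2) (1 / r) z :=
      ((hasDerivAt_id z).div_const r).add_const _
    have h2 : HasDerivAt (fun z => exp (-(r * z))) (exp (-(r * z)) * -(r * 1)) z :=
      ((hasDerivAt_id z).const_mul r).neg.exp
    refine HasDerivAt.congr_deriv (h1.mul h2).neg ?_
    field_simp
    ring
  have hn : ∀ z ∈ Ioi β, 0 ≤ z * exp (-(r * z)) := fun z hz =>
    mul_nonneg (hβ.trans (le_of_lt hz)) (exp_pos _).le
  have ht : Tendsto (fun z => -((z / r + 1 / r ^ 2) * exp (-(r * z)))) atTop (𝓝 0) := by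
    have h0 : Tendsto (fun z => r * z) atTop atTop := tendsto_id.const_mul_atTop hr
    have h1 := (tendsto_pow_mul_exp_neg_atTop_nhds_zero 1).comp h0
    have h2 := (tendsto_pow_mul_exp_neg_atTop_nhds_zero 0).comp h0
    have h3 := ((h1.add h2).const_mul (1 / r ^ 2)).neg
    simp only [add_zero, mul_zero, neg_zero] at h3
    refine h3.congr fun z => ?_
    simp only [Function.comp]
    field_simp
  refine ⟨integrableOn_Ioi_deriv_of_nonneg' hd hn ht, ?_⟩
  rw [integral_Ioi_of_hasDerivAt_of_nonneg' hd hn ht]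
  ring

lemma int_zexp_one {β : ℝ} (hβ : 0 ≤ β) :
    IntegrableOn (fun z => z * exp (-z)) (Ioi β) ∧
      ∫ z in Ioi β, z * exp (-z) = (1 + β) * exp (-β) := by
  have := int_zexp one_pos hβ
  simp only [one_mul, div_one, one_pow] at this
  rw [add_comm]
  exact this

/-- The functional `U ↦ E U(t - Y)`, `Y` a Gamma(2) variable. -/
noncomputable def W (U : ℝ → ℝ) (t : ℝ) : ℝ := ∫ z in Ioi (0 : ℝ), z * exp (-z) * U (t - z)

/-- the extremal constant -/
noncomputable def K : ℝ := 4 / 9 * exp (-(1 / 3))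

lemma K_le : K ≤ 0.32 := by
  unfold K
  have h1 : (1 : ℝ) + 1 / 3 + (1 / 3) ^ 2 / 2 ≤ exp (1 / 3) :=
    Real.quadratic_le_exp_of_nonneg (by norm_num)
  have h2 : exp (-(1 / 3)) * exp (1 / 3) = 1 := by rw [← exp_add]; simp
  have h3 := exp_pos (-(1 / 3) : ℝ)
  nlinarith

lemma poly_ineq {β : ℝ} (h0 : 0 ≤ β) (h1 : β ≤ 4 / 3) :
    11 / 3 + β / 3 - β ^ 2 ≤ 0.68 * (7 / 3 - β) ^ 2 * (1 + β + β ^ 2 / 2 + β ^ 3 / 6) := by
  have h2 : 0 ≤ 4 / 3 - β := by linarith
  nlinarith [mul_nonneg h0 h2, mul_nonneg (mul_nonneg h0 h2) h0, mul_nonneg (mul_nonneg h0 h2) h2,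
    mul_nonneg (mul_nonneg (mul_nonneg h0 h2) h0) h0, mul_nonneg (mul_nonneg (mul_nonneg h0 h2) h2) h0,
    mul_nonneg (mul_nonneg (mul_nonneg h0 h2) h2) h2, pow_nonneg h0 5, pow_nonneg h2 5,
    mul_nonneg (pow_nonneg h0 4) h2, mul_nonneg (pow_nonneg h0 3) (pow_nonneg h2 2),
    mul_nonneg (pow_nonneg h0 2) (pow_nonneg h2 3), mul_nonneg h0 (pow_nonneg h2 4)]

theorem family_bound {a : ℝ} (ha : 0 < a) : K ≤ W (E a a) (4 / 3) := by
  have hr : 0 < 1 + a⁻¹ := by positivity
  unfold W
  rcases le_total (4 / 3) a with h | h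
  · have e : ∀ z ∈ Ioi (0 : ℝ), z * exp (-z) * E a a (4 / 3 - z) =
        exp ((4 / 3 - a) / a) * (z * exp (-((1 + a⁻¹) * z))) := by
      intro z hz
      have hz' : 0 < z := hz
      rw [E_of_le ha (by linarith), mul_assoc, ← exp_add, mul_left_comm, ← exp_add]
      congr 2
      field_simp
      ring
    rw [setIntegral_congr_fun measurableSet_Ioi e, integral_const_mul, (int_zexp hr le_rfl).2]
    simp only [zero_div, zero_add, mul_zero, neg_zero, exp_zero, mul_one]
    unfold K
    set x := a⁻¹ with hx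
    have e2 : (4 / 3 - a) / a = -(1 / 3) + ((2 * x - 1) / 3 + (2 * x - 1) / 3) := by
      rw [hx]; field_simp; ring
    rw [e2, exp_add, exp_add]
    have h3 := add_one_le_exp ((2 * x - 1) / 3)
    have h4 : 0 ≤ (2 * x - 1) / 3 + 1 := by linarith
    have h5 : ((2 * x - 1) / 3 + 1) * ((2 * x - 1) / 3 + 1) ≤
        exp ((2 * x - 1) / 3) * exp ((2 * x - 1) / 3) := mul_le_mul h3 h3 h4 (exp_pos _).le
    have h6 : 4 / 9 ≤ exp ((2 * x - 1) / 3) * exp ((2 * x - 1) / 3) * (1 / (1 + x) ^ 2) := by
      rw [mul_one_div, le_div_iff₀ (by positivity)]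
      nlinarith
    have h7 := exp_pos (-(1 / 3) : ℝ)
    nlinarith
  · set β := 4 / 3 - a with hβ
    have hβ0 : 0 ≤ β := by linarith
    have e : ∀ z ∈ Ioi (0 : ℝ), z * exp (-z) * E a a (4 / 3 - z) =
        z * exp (-z) - (Ioi β).indicator
          (fun z => z * exp (-z) - exp (β / a) * (z * exp (-((1 + a⁻¹) * z)))) z := by
      intro z hz
      by_cases hzβ : β < z
      · rw [indicator_of_mem (mem_Ioi.2 hzβ), E_of_le ha (by linarith), sub_sub_cancel, mul_assoc,
          ← exp_add, mul_left_comm, ← exp_add]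
        congr 2
        rw [hβ]
        field_simp
        ring
      · rw [indicator_of_notMem (by simpa using hzβ), E_of_ge ha (by linarith)]
        ring
    have i1 := (int_zexp_one hβ0).1
    have i2 := (int_zexp hr hβ0).1.const_mul (exp (β / a))
    have i3 : IntegrableOn ((Ioi β).indicator
          (fun z => z * exp (-z) - exp (β / a) * (z * exp (-((1 + a⁻¹) * z))))) (Ioi 0) :=
      ((integrable_indicator_iff measurableSet_Ioi).2 (i1.sub i2)).integrableOn
    rw [setIntegral_congr_fun measurableSet_Ioi e, integral_sub (int_zexp_one le_rfl).1 i3,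
      setIntegral_indicator measurableSet_Ioi, inter_eq_right.2 (Ioi_subset_Ioi hβ0),
      integral_sub i1 i2, integral_const_mul, (int_zexp_one le_rfl).2, (int_zexp_one hβ0).2,
      (int_zexp hr hβ0).2]
    have e3 : exp (β / a) * exp (-((1 + a⁻¹) * β)) = exp (-β) := by
      rw [← exp_add]; congr 1; field_simp; ring
    have e4 : (1 + β) * exp (-β) -
        exp (β / a) * ((β / (1 + a⁻¹) + 1 / (1 + a⁻¹) ^ 2) * exp (-((1 + a⁻¹) * β))) =
        exp (-β) * ((11 / 3 + β / 3 - β ^ 2) / (7 / 3 - β) ^ 2) := by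
      rw [mul_left_comm, e3]
      have ea : a = 4 / 3 - β := by rw [hβ]; ring
      have h73 : 7 / 3 - β = a + 1 := by rw [hβ]; ring
      have : 11 / 3 + β / 3 - β ^ 2 = (1 + β) * (a + 1) + a := by rw [ea]; ring
      rw [h73, this]
      field_simp
      ring
    rw [e4]
    have hβ1 : β ≤ 4 / 3 := by linarith
    have hp := poly_ineq hβ0 hβ1
    have hq : 1 + β + β ^ 2 / 2 + β ^ 3 / 6 ≤ exp β := by
      have := Real.sum_le_exp_of_nonneg hβ0 4
      simp only [Finset.sum_range_succ, Finset.sum_range_zero, Nat.factorial] at this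
      norm_num at this
      linarith
    have h8 : exp (-β) * exp β = 1 := by rw [← exp_add]; simp
    have h9 : 0 < (7 / 3 - β) ^ 2 := by have : 0 < 7 / 3 - β := by linarith
                                        positivity
    have h10 : (11 / 3 + β / 3 - β ^ 2) / (7 / 3 - β) ^ 2 ≤ 0.68 * exp β := by
      rw [div_le_iff₀ h9]
      nlinarith
    have h11 := exp_pos (-β)
    have h12 := K_le
    simp only [add_zero, neg_zero, exp_zero, mul_one]
    nlinarith

end Crest.Agent.R280
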