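import Mathlib
import Crest.Agent.R280.Family

set_option autoImplicit false

open MeasureTheory Set Filter Topology Real

namespace Crest.Agent.R280

/-- the Gamma(2) density, reflected about `4/3` -/
noncomputable def wt (t : ℝ) : ℝ := max (4 / 3 - t) 0 * exp (-(4 / 3 - t))

lemma continuous_wt : Continuous wt := by unfold wt; fun_prop

lemma wt_nonneg (t : ℝ) : 0 ≤ wt t := mul_nonneg (le_max_right _ _) (exp_pos _).le

lemma wt_of_le {t : ℝ} (h : t ≤ 4 / 3) : wt t = (4 / 3 - t) * exp (-(4 / 3 - t)) := by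
  unfold wt; rw [max_eq_left (by linarith)]

lemma wt_of_ge {t : ℝ} (h : 4 / 3 ≤ t) : wt t = 0 := by
  unfold wt; rw [max_eq_right (by linarith), zero_mul]

lemma wt_le_one (t : ℝ) : wt t ≤ 1 := by
  rcases le_total t (4 / 3) with h | h
  · rw [wt_of_le h]
    have h1 := add_one_le_exp (4 / 3 - t)
    have h2 : exp (-(4 / 3 - t)) * exp (4 / 3 - t) = 1 := by rw [← exp_add]; simp
    have h3 := exp_pos (-(4 / 3 - t))
    nlinarith
  · rw [wt_of_ge h]; norm_num

lemma zexp_mono {p q : ℝ} (hpq : p ≤ q) (hq : q ≤ 1) :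
    p * exp (-p) ≤ q * exp (-q) ∨ q < 0 := by
  rcases lt_or_ge q 0 with h | h
  · exact Or.inr h
  left
  have h1 := add_one_le_exp (-(q - p))
  have h2 : exp (-q) = exp (-p) * exp (-(q - p)) := by rw [← exp_add]; congr 1; ring
  have h3 := exp_pos (-p)
  rw [h2]
  have h4 : p ≤ q * exp (-(q - p)) := by nlinarith
  nlinarith

lemma zexp_anti {p q : ℝ} (hpq : p ≤ q) (hp : 1 ≤ p) : q * exp (-q) ≤ p * exp (-p) := by
  have h1 := add_one_le_exp (q - p)
  have h2 : exp (-p) = exp (-q) * exp (q - p) := by rw [← exp_add]; congr 1; ring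
  have h3 := exp_pos (-q)
  rw [h2]
  have h4 : q ≤ p * exp (q - p) := by nlinarith
  nlinarith

lemma wt_mono {s t : ℝ} (hst : s ≤ t) (ht : t ≤ 1 / 3) : wt s ≤ wt t := by
  rw [wt_of_le (by linarith), wt_of_le (by linarith)]
  exact zexp_anti (by linarith) (by linarith)

lemma wt_anti {s t : ℝ} (hst : s ≤ t) (hs : 1 / 3 ≤ s) : wt t ≤ wt s := by
  rcases le_total t (4 / 3) with h | h
  · rw [wt_of_le h, wt_of_le (by linarith)]
    rcases zexp_mono (p := 4 / 3 - t) (q := 4 / 3 - s) (by linarith) (by linarith) with h1 | h1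
    · exact h1
    · exfalso; linarith
  · rw [wt_of_ge h]; exact wt_nonneg s

lemma integrable_wt : Integrable wt := by
  have h1 : Integrable ((Ioi (0 : ℝ)).indicator (fun z => z * exp (-z))) :=
    (integrable_indicator_iff measurableSet_Ioi).2 (int_zexp_one le_rfl).1
  have h2 := h1.comp_sub_left (4 / 3)
  refine h2.congr (Eventually.of_forall fun t => ?_)
  by_cases h : t < 4 / 3
  · simp only
    rw [indicator_of_mem (mem_Ioi.2 (by linarith)), wt_of_le h.le]
  · simp only
    rw [indicator_of_notMem (by simpa using h), wt_of_ge (by linarith)]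

lemma W_eq (U : ℝ → ℝ) : W U (4 / 3) = ∫ t, wt t * U t := by
  unfold W
  rw [← integral_indicator measurableSet_Ioi,
    ← integral_sub_left_eq_self (fun t => wt t * U t) volume (4 / 3)]
  congr 1
  funext z
  by_cases h : 0 < z
  · rw [indicator_of_mem (mem_Ioi.2 h), wt_of_le (by linarith)]
    simp
  · rw [indicator_of_notMem (by simpa using h), wt_of_ge (by linarith), zero_mul]

lemma integrable_wt_mul {U : ℝ → ℝ} (hm : Continuous U) (hb : ∀ t, |U t| ≤ 1) :
    Integrable (fun t => wt t * U t) :=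
  integrable_wt.mul_bdd (c := 1) hm.aestronglyMeasurable (Eventually.of_forall hb)

lemma W_sub {U V : ℝ → ℝ} (hU : Continuous U) (hUb : ∀ t, |U t| ≤ 1) (hV : Continuous V)
    (hVb : ∀ t, |V t| ≤ 1) : W U (4 / 3) - W V (4 / 3) = ∫ t, wt t * (U t - V t) := by
  rw [W_eq, W_eq, ← integral_sub (integrable_wt_mul hU hUb) (integrable_wt_mul hV hVb)]
  congr 1; funext t; ring

lemma integrable_wt_sub {U V : ℝ → ℝ} (hU : Continuous U) (hUb : ∀ t, |U t| ≤ 1) (hV : Continuous V)
    (hVb : ∀ t, |V t| ≤ 1) : Integrable fun t => wt t * (U t - V t) := by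
  refine ((integrable_wt_mul hU hUb).sub (integrable_wt_mul hV hVb)).congr
    (Eventually.of_forall fun t => ?_)
  simp only [Pi.sub_apply]; ring

lemma W_E_ge {a τ : ℝ} (ha : 0 < a) : K - max (τ - a) 0 ≤ W (E a τ) (4 / 3) := by
  have h0 := family_bound ha
  have h1 := W_sub (continuous_E a a) (abs_E_le a a) (continuous_E a τ) (abs_E_le a τ)
  have hi := integrable_wt_sub (continuous_E a a) (abs_E_le a a) (continuous_E a τ) (abs_E_le a τ)
  rcases le_total τ a with h | h
  · have : ∫ t, wt t * (E a a t - E a τ t) ≤ 0 :=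
      integral_nonpos fun t => mul_nonpos_of_nonneg_of_nonpos (wt_nonneg t)
        (sub_nonpos.2 (E_anti ha h t))
    have := le_max_right (τ - a) 0
    linarith
  · have e : (fun t => E a a t - E a τ t) = fun t => (E a a t - step t) - (E a τ t - step t) := by
      funext t; ring
    have hi2 : Integrable (fun t => E a a t - E a τ t) := by
      rw [e]; exact (E_mean ha a).1.sub (E_mean ha τ).1
    have hv : ∫ t, (E a a t - E a τ t) = τ - a := by
      rw [e, integral_sub (E_mean ha a).1 (E_mean ha τ).1, (E_mean ha a).2, (E_mean ha τ).2]; ring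
    have : ∫ t, wt t * (E a a t - E a τ t) ≤ ∫ t, (E a a t - E a τ t) :=
      integral_mono hi hi2 fun t => by
        have h1 := wt_le_one t
        have h2 := sub_nonneg.2 (E_anti ha h t)
        simp only
        nlinarith
    have := le_max_left (τ - a) 0
    linarith

lemma concave_inside {g : ℝ → ℝ} (hg : ConcaveOn ℝ univ g) {t₁ t₂ t : ℝ} (h1 : g t₁ = 0)
    (h2 : g t₂ = 0) (ht1 : t₁ ≤ t) (ht2 : t ≤ t₂) : 0 ≤ g t := by
  have := hg.ge_on_segment (mem_univ t₁) (mem_univ t₂) (z := t)
    (by rw [segment_eq_Icc (ht1.trans ht2)]; exact ⟨ht1, ht2⟩)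
  rwa [h1, h2, min_self] at this

lemma concave_right {g : ℝ → ℝ} (hg : ConcaveOn ℝ univ g) {t₁ t₂ t : ℝ} (h1 : g t₁ = 0)
    (h2 : g t₂ = 0) (h12 : t₁ < t₂) (ht2 : t₂ ≤ t) : g t ≤ 0 := by
  have hD : 0 < t - t₁ := by linarith
  have ha : 0 ≤ (t - t₂) / (t - t₁) := div_nonneg (by linarith) hD.le
  have hb : 0 < (t₂ - t₁) / (t - t₁) := div_pos (by linarith) hD
  have := hg.2 (mem_univ t₁) (mem_univ t) ha hb.le (by field_simp; ring)
  have e : ((t - t₂) / (t - t₁)) • t₁ + ((t₂ - t₁) / (t - t₁)) • t = t₂ := by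
    simp only [smul_eq_mul]; field_simp; ring
  rw [e, h1, h2] at this
  simp only [smul_eq_mul, mul_zero, zero_add] at this
  by_contra hc
  have := mul_pos hb (not_le.1 hc)
  linarith

lemma concave_left {g : ℝ → ℝ} (hg : ConcaveOn ℝ univ g) {t₁ t₂ t : ℝ} (h1 : g t₁ = 0)
    (h2 : g t₂ = 0) (h12 : t₁ < t₂) (ht1 : t ≤ t₁) : g t ≤ 0 := by
  have hD : 0 < t₂ - t := by linarith
  have ha : 0 ≤ (t₁ - t) / (t₂ - t) := div_nonneg (by linarith) hD.le
  have hb : 0 < (t₂ - t₁) / (t₂ - t) := div_pos (by linarith) hD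
  have := hg.2 (mem_univ t) (mem_univ t₂) hb.le ha (by field_simp; ring)
  have e : ((t₂ - t₁) / (t₂ - t)) • t + ((t₁ - t) / (t₂ - t)) • t₂ = t₁ := by
    simp only [smul_eq_mul]; field_simp; ring
  rw [e, h1, h2] at this
  simp only [smul_eq_mul, mul_zero, add_zero] at this
  by_contra hc
  have := mul_pos hb (not_le.1 hc)
  linarith

lemma key {U : ℝ → ℝ} (h : Cls 0 U) {t₁ t₂ a τ : ℝ} (ha : 0 < a) (h12 : t₁ < t₂)
    (h1 : t₁ ≤ 1 / 3) (h2 : 1 / 3 ≤ t₂) (hw : wt t₁ = wt t₂)
    (e1 : log (U t₁) = (t₁ - τ) / a) (e2 : log (U t₂) = (t₂ - τ) / a) :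
    W (E a τ) (4 / 3) - wt t₂ * (a - τ) ≤ W U (4 / 3) ∧ τ - a ≤ t₂ - t₁ := by
  set g : ℝ → ℝ := fun t => log (U t) - (t - τ) / a with hg
  have hgc : ConcaveOn ℝ univ g := by
    have hc : ConvexOn ℝ univ (fun t : ℝ => (t - τ) / a) := by
      have := ((convexOn_id (convex_univ (𝕜 := ℝ) (E := ℝ))).add_const (-τ)).smul (inv_pos.2 ha).le
      refine this.congr fun t _ => ?_
      simp only [Pi.add_apply, id, smul_eq_mul]
      ring
    exact h.conc.sub hc
  have g1 : g t₁ = 0 := by simp only [hg, e1, sub_self]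
  have g2 : g t₂ = 0 := by simp only [hg, e2, sub_self]
  have hin : ∀ t, t₁ ≤ t → t ≤ t₂ → E a τ t ≤ U t := by
    intro t ht1 ht2
    have := concave_inside hgc g1 g2 ht1 ht2
    refine (E_le_exp a τ t).trans ?_
    rw [← le_log_iff_exp_le (h.pos t)]
    simp only [hg] at this
    linarith
  have hout : ∀ t, g t ≤ 0 → U t ≤ E a τ t := by
    intro t ht
    refine le_min (h.le_one t) ?_
    rw [← log_le_iff_le_exp (h.pos t)]
    simp only [hg] at ht
    linarith
  have e : (fun t => U t - E a τ t) = fun t => (U t - step t) - (E a τ t - step t) := by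
    funext t; ring
  have hi2 : Integrable (fun t => U t - E a τ t) := by
    rw [e]; exact h.integ.sub (E_mean ha τ).1
  have hv : ∫ t, (U t - E a τ t) = τ - a := by
    rw [e, integral_sub h.integ (E_mean ha τ).1, h.mean, (E_mean ha τ).2]; ring
  constructor
  · have h3 := W_sub h.cont h.abs_le (continuous_E a τ) (abs_E_le a τ)
    have hi := integrable_wt_sub h.cont h.abs_le (continuous_E a τ) (abs_E_le a τ)
    have h4 : ∫ t, wt t₂ * (U t - E a τ t) ≤ ∫ t, wt t * (U t - E a τ t) := by
      refine integral_mono (hi2.const_mul _) hi fun t => ?_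
      simp only
      rcases le_total t t₁ with ht1 | ht1
      · have a1 := hout t (concave_left hgc g1 g2 h12 ht1)
        have a2 := wt_mono ht1 h1
        nlinarith
      rcases le_total t₂ t with ht2 | ht2
      · have a1 := hout t (concave_right hgc g1 g2 h12 ht2)
        have a2 := wt_anti ht2 h2
        nlinarith
      have a1 := hin t ht1 ht2
      have a2 : wt t₂ ≤ wt t := by
        rcases le_total t (1 / 3) with ht | ht
        · rw [← hw]; exact wt_mono ht1 ht
        · exact wt_anti ht2 ht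
      nlinarith
    rw [integral_const_mul, hv] at h4
    linarith
  · have hi3 : Integrable ((Icc t₁ t₂).indicator (fun _ => (1 : ℝ))) :=
      (integrable_indicator_iff measurableSet_Icc).2 (by simp)
    have h5 : ∫ t, (U t - E a τ t) ≤ ∫ t, (Icc t₁ t₂).indicator (fun _ => (1 : ℝ)) t := by
      refine integral_mono hi2 hi3 fun t => ?_
      simp only
      by_cases ht : t ∈ Icc t₁ t₂
      · rw [indicator_of_mem ht]
        have := h.le_one t
        have := E_pos a τ t
        linarith
      · rw [indicator_of_notMem ht]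
        rw [mem_Icc, not_and_or, not_le, not_le] at ht
        rcases ht with ht | ht
        · have := hout t (concave_left hgc g1 g2 h12 ht.le); linarith
        · have := hout t (concave_right hgc g1 g2 h12 ht.le); linarith
    rw [hv, integral_indicator measurableSet_Icc] at h5
    simpa [h12.le] using h5

/-- left end point of the level interval of width `s` of the Gamma(2) density -/
noncomputable def yy (s : ℝ) : ℝ := s / (exp s - 1)

lemma exp_sub_one_pos {s : ℝ} (hs : 0 < s) : 0 < exp s - 1 := by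
  have := add_one_le_exp s; linarith

lemma yy_pos {s : ℝ} (hs : 0 < s) : 0 < yy s := div_pos hs (exp_sub_one_pos hs)

lemma yy_le_one {s : ℝ} (hs : 0 < s) : yy s ≤ 1 := by
  unfold yy
  rw [div_le_one (exp_sub_one_pos hs)]
  have := add_one_le_exp s; linarith

lemma one_le_yy_add {s : ℝ} (hs : 0 < s) : 1 ≤ yy s + s := by
  have h0 := exp_sub_one_pos hs
  have h1 := add_one_le_exp (-s)
  have h2 : exp (-s) * exp s = 1 := by rw [← exp_add]; simp
  have h3 := exp_pos s
  have h4 : 1 - s ≤ yy s := by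
    unfold yy
    rw [le_div_iff₀ h0]
    nlinarith
  linarith

lemma wt_yy {s : ℝ} (hs : 0 < s) : wt (4 / 3 - yy s - s) = wt (4 / 3 - yy s) := by
  have h0 := exp_sub_one_pos hs
  have h1 := yy_pos hs
  rw [wt_of_le (by linarith), wt_of_le (by linarith)]
  have e1 : 4 / 3 - (4 / 3 - yy s - s) = yy s + s := by ring
  have e2 : 4 / 3 - (4 / 3 - yy s) = yy s := by ring
  rw [e1, e2]
  have e3 : yy s + s = yy s * exp s := by unfold yy; field_simp; ring
  have e4 : exp (-yy s) = exp s * exp (-(yy s + s)) := by rw [← exp_add]; congr 1; ring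
  rw [e4, ← mul_assoc, ← e3]

lemma wt_yy_le {s : ℝ} (hs : 0 < s) : wt (4 / 3 - yy s) * s ≤ 6 / s := by
  have h0 := exp_sub_one_pos hs
  have h1 := yy_pos hs
  rw [wt_of_le (by linarith)]
  have e2 : 4 / 3 - (4 / 3 - yy s) = yy s := by ring
  rw [e2]
  have h2 : exp (-yy s) ≤ 1 := by rw [exp_le_one_iff]; linarith
  have hq : 1 + s + s ^ 2 / 2 + s ^ 3 / 6 ≤ exp s := by
    have := Real.sum_le_exp_of_nonneg hs.le 4
    simp only [Finset.sum_range_succ, Finset.sum_range_zero, Nat.factorial] at this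
    norm_num at this
    linarith
  have h3 : yy s * s ≤ 6 / s := by
    unfold yy
    rw [div_mul_eq_mul_div, div_le_div_iff₀ h0 hs]
    nlinarith [sq_nonneg s]
  have h4 : yy s * exp (-yy s) * s ≤ yy s * s := by
    have := mul_pos h1 hs
    nlinarith
  linarith

theorem compare {U : ℝ → ℝ} (h : Cls 0 U) : K ≤ W U (4 / 3) := by
  by_contra hc
  rw [not_le] at hc
  set ε := K - W U (4 / 3) with hε
  have hε0 : 0 < ε := by linarith
  -- slope and discriminating function
  set lam : ℝ → ℝ := fun s => (log (U (4 / 3 - yy s)) - log (U (4 / 3 - yy s - s))) / s with hlam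
  set D : ℝ → ℝ := fun s => 1 + log (U (4 / 3 - yy s)) - lam s * (4 / 3 - yy s) with hD
  have lam_nonneg : ∀ s, 0 < s → 0 ≤ lam s := by
    intro s hs
    refine div_nonneg (sub_nonneg.2 ?_) hs.le
    exact log_le_log (h.pos _) (h.mono (by linarith))
  have lam_pos : ∀ s, 0 < s → D s ≤ 0 → 0 < lam s := by
    intro s hs hDs
    rcases (lam_nonneg s hs).eq_or_lt with h0 | h0
    · exfalso
      have h1 : log (U (4 / 3 - yy s)) = log (U (4 / 3 - yy s - s)) := by
        have : lam s = 0 := h0.symm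
        simp only [hlam] at this
        rw [div_eq_zero_iff] at this
        rcases this with h2 | h2
        · linarith
        · exact absurd h2 hs.ne'
      have h2 : log (U (4 / 3 - yy s)) ≤ -1 := by
        simp only [hD, ← h0] at hDs
        linarith
      set c := log (U (4 / 3 - yy s)) with hc
      have hg : ConcaveOn ℝ univ (fun t => log (U t) + -c) := h.conc.add_const _
      have h3 : ∀ t, 4 / 3 - yy s ≤ t → U t ≤ exp (-1) := by
        intro t ht
        have := concave_right hg (t₁ := 4 / 3 - yy s - s) (t₂ := 4 / 3 - yy s) (t := t)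
          (by linarith) (by linarith) (by linarith) ht
        rw [← log_le_iff_le_exp (h.pos t)]
        linarith
      have h4 : (1 : ℝ) ≤ exp (-1) :=
        le_of_tendsto h.top ((eventually_ge_atTop (4 / 3 - yy s)).mono h3)
      have h5 : exp (-1 : ℝ) < 1 := by rw [exp_lt_one_iff]; norm_num
      linarith
    · exact h0
  have main : ∀ s, 0 < s → 0 < lam s →
      (D s ≤ 0 → K - s ≤ W U (4 / 3)) ∧ (D s = 0 → K ≤ W U (4 / 3)) ∧
      (0 ≤ D s → K - wt (4 / 3 - yy s) * (lam s)⁻¹ ≤ W U (4 / 3)) := by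
    intro s hs hl
    have y0 := yy_pos hs
    have y1 := yy_le_one hs
    have y2 := one_le_yy_add hs
    set a := (lam s)⁻¹ with ha
    have ha0 : 0 < a := inv_pos.2 hl
    set τ := (4 / 3 - yy s) - a * log (U (4 / 3 - yy s)) with hτ
    have e2 : log (U (4 / 3 - yy s)) = ((4 / 3 - yy s) - τ) / a := by
      rw [hτ]; field_simp; ring
    have hls : lam s * s = log (U (4 / 3 - yy s)) - log (U (4 / 3 - yy s - s)) := by
      simp only [hlam]; field_simp
    have hal : a * lam s = 1 := by rw [ha]; field_simp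
    have e1 : log (U (4 / 3 - yy s - s)) = ((4 / 3 - yy s - s) - τ) / a := by
      rw [hτ, eq_div_iff ha0.ne']
      have : log (U (4 / 3 - yy s - s)) = log (U (4 / 3 - yy s)) - lam s * s := by linarith
      rw [this]
      linear_combination (-s) * hal
    obtain ⟨k1, k2⟩ := key h ha0 (t₁ := 4 / 3 - yy s - s) (t₂ := 4 / 3 - yy s) (τ := τ)
      (by linarith) (by linarith) (by linarith) (wt_yy hs) e1 e2
    have k3 := W_E_ge (τ := τ) ha0
    have hm : a - τ = a * D s := by
      simp only [hD, hτ]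
      linear_combination (4 / 3 - yy s) * hal
    have w0 := wt_nonneg (4 / 3 - yy s)
    refine ⟨fun hDs => ?_, fun hDs => ?_, fun hDs => ?_⟩
    · have b1 : a - τ ≤ 0 := by rw [hm]; exact mul_nonpos_of_nonneg_of_nonpos ha0.le hDs
      have b2 : max (τ - a) 0 ≤ s := max_le (by linarith) hs.le
      have b3 : wt (4 / 3 - yy s) * (a - τ) ≤ 0 := mul_nonpos_of_nonneg_of_nonpos w0 b1
      linarith
    · have b1 : a - τ = 0 := by rw [hm, hDs, mul_zero]
      have b2 : max (τ - a) 0 = 0 := max_eq_right (by linarith)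
      rw [b1, mul_zero] at k1
      linarith
    · have b1 : 0 ≤ a - τ := by rw [hm]; exact mul_nonneg ha0.le hDs
      have b2 : max (τ - a) 0 = 0 := max_eq_right (by linarith)
      have b3 : log (U (4 / 3 - yy s)) ≤ 0 := log_nonpos (h.pos _).le (h.le_one _)
      have b4 : a - τ ≤ a := by
        have : a * log (U (4 / 3 - yy s)) ≤ 0 := mul_nonpos_of_nonneg_of_nonpos ha0.le b3
        rw [hτ]; linarith
      have b5 := mul_le_mul_of_nonneg_left b4 w0
      linarith
  -- small width
  have hs1 : 0 < D (ε / 2) := by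
    by_contra hn
    rw [not_lt] at hn
    have := (main (ε / 2) (by linarith) (lam_pos _ (by linarith) hn)).1 hn
    linarith
  -- large width
  obtain ⟨T, hT⟩ : ∃ T, U T ≤ U (1 / 3) * exp (-1) := by
    have : ∀ᶠ t in atBot, U t ≤ U (1 / 3) * exp (-1) :=
      (h.bot.eventually (ge_mem_nhds (mul_pos (h.pos _) (exp_pos _))))
    exact this.exists
  set s₂ := max (max (ε / 2) (4 / 3 - T)) (12 / ε) with hs₂
  have q1 : ε / 2 ≤ s₂ := (le_max_left _ _).trans (le_max_left _ _)
  have q2 : 4 / 3 - T ≤ s₂ := (le_max_right _ _).trans (le_max_left _ _)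
  have q3 : 12 / ε ≤ s₂ := le_max_right _ _
  have q0 : 0 < s₂ := by linarith
  have hs2 : D s₂ < 0 := by
    by_contra hn
    rw [not_lt] at hn
    have y0 := yy_pos q0
    have y1 := yy_le_one q0
    have r1 : log (U (1 / 3)) ≤ log (U (4 / 3 - yy s₂)) :=
      log_le_log (h.pos _) (h.mono (by linarith))
    have r2 : log (U (4 / 3 - yy s₂ - s₂)) ≤ log (U (1 / 3) * exp (-1)) :=
      log_le_log (h.pos _) ((h.mono (by linarith)).trans hT)
    rw [log_mul (h.pos _).ne' (exp_pos _).ne', log_exp] at r2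
    have r3 : s₂⁻¹ ≤ lam s₂ := by
      simp only [hlam]
      rw [inv_eq_one_div]
      exact div_le_div_of_nonneg_right (by linarith) q0.le
    have r4 : 0 < lam s₂ := (inv_pos.2 q0).trans_le r3
    have r5 : (lam s₂)⁻¹ ≤ s₂ := inv_le_of_inv_le₀ q0 r3
    have r6 := (main s₂ q0 r4).2.2 hn
    have r7 := wt_yy_le q0
    have r8 := mul_le_mul_of_nonneg_left r5 (wt_nonneg (4 / 3 - yy s₂))
    have r9 : 6 / s₂ ≤ ε / 2 := by
      rw [div_le_iff₀ hε0] at q3
      rw [div_le_iff₀ q0]
      linarith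
    linarith
  -- intermediate value
  have hyc : ContinuousOn yy (Icc (ε / 2) s₂) := by
    unfold yy
    refine ContinuousOn.div (by fun_prop) (by fun_prop) fun s hs => ?_
    exact (exp_sub_one_pos (by linarith [hs.1])).ne'
  have hlU : Continuous fun t => log (U t) := h.cont.log fun t => (h.pos t).ne'
  have c1 : ContinuousOn (fun s => log (U (4 / 3 - yy s))) (Icc (ε / 2) s₂) :=
    hlU.comp_continuousOn (continuousOn_const.sub hyc)
  have c2 : ContinuousOn (fun s => log (U (4 / 3 - yy s - s))) (Icc (ε / 2) s₂) :=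
    hlU.comp_continuousOn ((continuousOn_const.sub hyc).sub continuousOn_id)
  have c3 : ContinuousOn lam (Icc (ε / 2) s₂) :=
    (c1.sub c2).div continuousOn_id fun s hs => by
      have : 0 < s := by linarith [hs.1]
      exact this.ne'
  have c4 : ContinuousOn D (Icc (ε / 2) s₂) :=
    (continuousOn_const.add c1).sub (c3.mul (continuousOn_const.sub hyc))
  obtain ⟨s, hs, hs0⟩ := intermediate_value_Icc' q1 c4 (⟨hs2.le, hs1.le⟩ : (0 : ℝ) ∈ Icc _ _)
  have hspos : 0 < s := by linarith [hs.1]
  have := (main s hspos (lam_pos s hspos hs0.le)).2.1 hs0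
  linarith

end Crest.Agent.R280
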