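import Mathlib
import Crest.Prelude.Def_TruncExpWeight
import Crest.Agent.R280.Compare

set_option autoImplicit false

open MeasureTheory Set Filter Topology Real

namespace Crest.Agent.R280

/-- `E φ(t + ∑ aᵢ Xᵢ)` -/
noncomputable def I (N : ℕ) (a : Fin N → ℝ) (φ : ℝ → ℝ) (t : ℝ) : ℝ :=
  ∫ x in Set.pi Set.univ (fun _ : Fin N => Set.Ioi (0 : ℝ)),
    φ (t + ∑ i, a i * x i) * exp (-∑ i, x i)

lemma I_eq (N : ℕ) (a : Fin N → ℝ) (φ : ℝ → ℝ) (t : ℝ) :
    I N a φ t = ∫ x, φ (t + ∑ i, a i * x i) * exp (-∑ i, x i)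
      ∂(Measure.pi fun _ : Fin N => (volume : Measure ℝ).restrict (Ioi 0)) := by
  unfold I
  rw [volume_pi, Measure.restrict_pi_pi]

lemma integrable_I (N : ℕ) (a : Fin N → ℝ) {φ : ℝ → ℝ} (hm : Measurable φ) (hb : ∀ t, |φ t| ≤ 1)
    (t : ℝ) : Integrable (fun x : Fin N → ℝ => φ (t + ∑ i, a i * x i) * exp (-∑ i, x i))
      (Measure.pi fun _ : Fin N => (volume : Measure ℝ).restrict (Ioi 0)) := by
  have h1 : Integrable (fun x : Fin N → ℝ => ∏ i, exp (-x i))
      (Measure.pi fun _ : Fin N => (volume : Measure ℝ).restrict (Ioi 0)) :=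
    Integrable.fintype_prod (f := fun _ x => exp (-x)) fun _ => integrableOn_exp_neg_Ioi 0
  refine Integrable.mono' h1 ?_ (Eventually.of_forall fun x => ?_)
  · exact (by fun_prop : Measurable
      (fun x : Fin N → ℝ => φ (t + ∑ i, a i * x i) * exp (-∑ i, x i))).aestronglyMeasurable
  · rw [Real.norm_eq_abs, abs_mul, abs_of_pos (exp_pos _), ← exp_sum, Finset.sum_neg_distrib]
    have := hb (t + ∑ i, a i * x i)
    have h2 := exp_pos (-∑ i, x i)
    nlinarith

lemma I_zero (a : Fin 0 → ℝ) (φ : ℝ → ℝ) : I 0 a φ = φ := by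
  funext t
  rw [I_eq]
  simp [measureReal_def]

lemma I_succ {n : ℕ} (a : Fin (n + 1) → ℝ) (i : Fin (n + 1)) {φ : ℝ → ℝ} (hm : Measurable φ)
    (hb : ∀ t, |φ t| ≤ 1) : I (n + 1) a φ = I n (fun j => a (i.succAbove j)) (L (a i) φ) := by
  funext t
  have hi := integrable_I (n + 1) a hm hb t
  rw [I_eq, I_eq]
  have hp := (measurePreserving_piFinSuccAbove
    (fun _ : Fin (n + 1) => (volume : Measure ℝ).restrict (Ioi 0)) i).symm
  rw [← hp.integrable_comp_emb (MeasurableEquiv.measurableEmbedding _)] at hi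
  rw [← hp.integral_comp']
  refine (integral_prod_symm _ hi).trans ?_
  congr 1
  funext y
  unfold L
  rw [← integral_mul_const]
  congr 1
  funext x
  simp only [Function.comp, MeasurableEquiv.piFinSuccAbove_symm_apply, Fin.insertNthEquiv,
    Equiv.coe_fn_mk]
  rw [Fin.sum_univ_succAbove _ i, Fin.sum_univ_succAbove _ i]
  simp only [Fin.insertNth_apply_same, Fin.insertNth_apply_succAbove]
  rw [mul_assoc, ← exp_add]
  congr 2 <;> ring

lemma cls_I : ∀ (N : ℕ) (a : Fin N → ℝ) {m : ℝ} {U : ℝ → ℝ}, Cls m U →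
    Cls (m + ∑ i, a i) (I N a U)
  | 0, a, m, U, h => by rw [I_zero]; simpa using h
  | n + 1, a, m, U, h => by
    rw [I_succ a 0 h.cont.measurable h.abs_le, Fin.sum_univ_succAbove _ 0, ← add_assoc]
    exact cls_I n _ (h.L (a 0))

lemma L_one_sub {φ : ℝ → ℝ} (hm : Measurable φ) (hb : ∀ t, |φ t| ≤ 1) (b : ℝ) :
    L b (fun t => 1 - φ t) = fun t => 1 - L b φ t := by
  funext t
  unfold L
  simp only [sub_mul, one_mul]
  rw [integral_sub (integrableOn_exp_neg_Ioi 0) (integrableOn_L hm hb b t),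
    integral_exp_neg_Ioi_zero]

lemma L_nonneg {φ : ℝ → ℝ} (h0 : ∀ t, 0 ≤ φ t) (b t : ℝ) : 0 ≤ L b φ t :=
  integral_nonneg fun _ => mul_nonneg (h0 _) (exp_pos _).le

lemma I_one_sub : ∀ (N : ℕ) (a : Fin N → ℝ) {φ : ℝ → ℝ}, Measurable φ → (∀ t, 0 ≤ φ t) →
    (∀ t, |φ t| ≤ 1) → I N a (fun t => 1 - φ t) = fun t => 1 - I N a φ t
  | 0, a, φ, _, _, _ => by rw [I_zero, I_zero]
  | n + 1, a, φ, hm, h0, hb => by
    have hb' : ∀ t, |1 - φ t| ≤ 1 := by
      intro t
      have h1 := h0 t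
      have h2 := (abs_le.1 (hb t)).2
      rw [abs_le]; constructor <;> linarith
    rw [I_succ a 0 (φ := fun t => 1 - φ t) (measurable_const.sub hm) hb', I_succ a 0 hm hb, L_one_sub hm hb]
    exact I_one_sub n _ (measurable_L hm _) (L_nonneg h0 _) (abs_L_le hb _)

lemma measurable_W {φ : ℝ → ℝ} (hm : Measurable φ) : Measurable (W φ) := by
  unfold W
  have : StronglyMeasurable (Function.uncurry fun (t z : ℝ) => z * exp (-z) * φ (t - z)) := by
    apply Measurable.stronglyMeasurable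
    unfold Function.uncurry
    fun_prop
  exact (this.integral_prod_right (ν := volume.restrict (Ioi (0 : ℝ)))).measurable

lemma abs_W_le {φ : ℝ → ℝ} (hb : ∀ t, |φ t| ≤ 1) (t : ℝ) : |W φ t| ≤ 1 := by
  have h2 : ‖∫ z in Ioi (0 : ℝ), z * exp (-z) * φ (t - z)‖ ≤ ∫ z in Ioi (0 : ℝ), z * exp (-z) := by
    refine norm_integral_le_of_norm_le (int_zexp_one le_rfl).1 ?_
    refine (ae_restrict_iff' measurableSet_Ioi).2 (Eventually.of_forall fun z hz => ?_)
    have h1 : 0 < z * exp (-z) := mul_pos hz (exp_pos _)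
    rw [Real.norm_eq_abs, abs_mul, abs_of_pos h1]
    have := hb (t - z)
    nlinarith
  rw [(int_zexp_one le_rfl).2] at h2
  unfold W
  simpa using h2

lemma W_nonneg {φ : ℝ → ℝ} (h0 : ∀ t, 0 ≤ φ t) (t : ℝ) : 0 ≤ W φ t :=
  setIntegral_nonneg measurableSet_Ioi fun _ hz =>
    mul_nonneg (mul_pos hz (exp_pos _)).le (h0 _)

lemma L_W {φ : ℝ → ℝ} (hm : Measurable φ) (hb : ∀ t, |φ t| ≤ 1) (b : ℝ) :
    L b (W φ) = W (L b φ) := by
  funext t
  unfold L W
  simp only [← integral_mul_const, ← integral_const_mul]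
  have hi : Integrable (Function.uncurry fun (x z : ℝ) => z * exp (-z) * φ (t + b * x - z) * exp (-x))
      (((volume : Measure ℝ).restrict (Ioi 0)).prod ((volume : Measure ℝ).restrict (Ioi 0))) := by
    have h1 := Integrable.mul_prod (integrableOn_exp_neg_Ioi 0) (int_zexp_one le_rfl).1.norm
    refine Integrable.mono' h1 ?_ (Eventually.of_forall fun p => ?_)
    · apply Measurable.aestronglyMeasurable
      unfold Function.uncurry
      fun_prop
    · unfold Function.uncurry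
      simp only [Real.norm_eq_abs]
      rw [abs_mul, abs_mul, abs_of_pos (exp_pos (-p.1))]
      have h2 := hb (t + b * p.1 - p.2)
      have h3 := mul_nonneg (abs_nonneg (p.2 * exp (-p.2))) (exp_pos (-p.1)).le
      nlinarith
  rw [integral_integral_swap hi]
  congr 1
  funext z
  congr 1
  funext x
  have : t + b * x - z = t - z + b * x := by ring
  rw [this]; ring

lemma I_W : ∀ (N : ℕ) (a : Fin N → ℝ) {φ : ℝ → ℝ}, Measurable φ → (∀ t, |φ t| ≤ 1) →
    I N a (W φ) = W (I N a φ)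
  | 0, a, φ, _, _ => by rw [I_zero, I_zero]
  | n + 1, a, φ, hm, hb => by
    rw [I_succ a 0 (measurable_W hm) (abs_W_le hb), I_succ a 0 hm hb, L_W hm hb]
    exact I_W n _ (measurable_L hm _) (abs_L_le hb _)

lemma g_eq : Crest.AlgGeometry.truncExpWeight = fun t => 1 - W step t := by
  funext t
  unfold Crest.AlgGeometry.truncExpWeight W
  split_ifs with h
  · have e : ∀ z ∈ Ioi (0 : ℝ), z * exp (-z) * step (t - z) = 0 := by
      intro z hz
      have hz' : 0 < z := hz
      unfold step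
      rw [if_neg (by linarith), mul_zero]
    rw [setIntegral_congr_fun measurableSet_Ioi e]
    simp
  · rw [not_le] at h
    have e : ∀ z ∈ Ioi (0 : ℝ), z * exp (-z) * step (t - z) =
        z * exp (-z) - (Ici t).indicator (fun z => z * exp (-z)) z := by
      intro z _
      unfold step
      by_cases hz : t ≤ z
      · rw [if_neg (by linarith), indicator_of_mem (mem_Ici.2 hz)]; ring
      · rw [if_pos (by linarith), indicator_of_notMem (by simpa using hz)]; ring
    have i3 : IntegrableOn ((Ici t).indicator (fun z => z * exp (-z))) (Ioi 0) :=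
      (int_zexp_one le_rfl).1.indicator measurableSet_Ici
    rw [setIntegral_congr_fun measurableSet_Ioi e, integral_sub (int_zexp_one le_rfl).1 i3,
      setIntegral_indicator measurableSet_Ici, inter_eq_right.2 (Ici_subset_Ioi.2 h),
      integral_Ici_eq_integral_Ioi, (int_zexp_one le_rfl).2, (int_zexp_one h.le).2]
    simp

lemma I_g (N : ℕ) (a : Fin N → ℝ) :
    I N a Crest.AlgGeometry.truncExpWeight (4 / 3) = 1 - W (I N a step) (4 / 3) := by
  rw [g_eq, I_one_sub N a (measurable_W measurable_step) (W_nonneg step_nonneg)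
    (abs_W_le abs_step_le), I_W N a measurable_step abs_step_le]

lemma I_of_zero : ∀ (N : ℕ) {φ : ℝ → ℝ}, Measurable φ → (∀ t, |φ t| ≤ 1) →
    I N (fun _ => 0) φ = φ
  | 0, φ, _, _ => I_zero _ _
  | n + 1, φ, hm, hb => by
    rw [I_succ _ 0 hm hb, L_zero]
    exact I_of_zero n hm hb

lemma W_step : K ≤ W step (4 / 3) := by
  have h := congrFun g_eq (4 / 3)
  unfold Crest.AlgGeometry.truncExpWeight at h
  rw [if_neg (by norm_num)] at h
  have hq : 1 + (4 / 3 : ℝ) + (4 / 3) ^ 2 / 2 + (4 / 3) ^ 3 / 6 ≤ exp (4 / 3) := by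
    have := Real.sum_le_exp_of_nonneg (x := 4 / 3) (by norm_num) 4
    simp only [Finset.sum_range_succ, Finset.sum_range_zero, Nat.factorial] at this
    norm_num at this
    linarith
  have h8 : exp (-(4 / 3)) * exp (4 / 3) = 1 := by rw [← exp_add]; simp
  have h9 := exp_pos (-(4 / 3) : ℝ)
  have := K_le
  nlinarith

theorem lower (N : ℕ) (a : Fin N → ℝ) (ha : ∑ i, a i = 0) : K ≤ W (I N a step) (4 / 3) := by
  by_cases h : ∃ i, 0 < a i
  · obtain ⟨i, hi⟩ := h
    cases N with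
    | zero => exact i.elim0
    | succ n =>
      rw [I_succ a i measurable_step abs_step_le, L_step hi]
      apply compare
      have := cls_I n (fun j => a (i.succAbove j)) (cls_E hi)
      rwa [← Fin.sum_univ_succAbove _ i, ha] at this
  · push Not at h
    have h0 : a = fun _ => 0 := by
      funext i
      exact (Finset.sum_eq_zero_iff_of_nonpos fun j _ => h j).1 ha i (Finset.mem_univ i)
    rw [h0, I_of_zero N measurable_step abs_step_le]
    exact W_step

lemma L_le_exp {φ : ℝ → ℝ} (hm : Measurable φ) (hb : ∀ t, |φ t| ≤ 1) {C c : ℝ} (hc : 0 ≤ c)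
    (hle : ∀ t, φ t ≤ C * exp (t / 2)) (t : ℝ) :
    L (-(2 * c)) φ t ≤ C * (1 + c)⁻¹ * exp (t / 2) := by
  unfold L
  have hr : -(1 + c) < 0 := by linarith
  have h1 : ∫ x in Ioi (0 : ℝ), φ (t + -(2 * c) * x) * exp (-x) ≤
      ∫ x in Ioi (0 : ℝ), C * exp (t / 2) * exp (-(1 + c) * x) := by
    refine setIntegral_mono_on (integrableOn_L hm hb _ t)
      ((integrableOn_exp_mul_Ioi hr 0).const_mul _) measurableSet_Ioi fun x _ => ?_
    refine (mul_le_mul_of_nonneg_right (hle _) (exp_pos _).le).trans (le_of_eq ?_)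
    rw [mul_assoc, mul_assoc, ← exp_add, ← exp_add]
    congr 2; ring
  rw [integral_const_mul, integral_exp_mul_Ioi hr] at h1
  refine h1.trans (le_of_eq ?_)
  simp only [mul_zero, exp_zero]
  have : (1 + c) ≠ 0 := by linarith
  field_simp

lemma I_le_exp {c : ℝ} (hc : 0 ≤ c) : ∀ (N : ℕ) {φ : ℝ → ℝ} {C : ℝ}, Measurable φ →
    (∀ t, |φ t| ≤ 1) → (∀ t, φ t ≤ C * exp (t / 2)) →
    ∀ t, I N (fun _ => -(2 * c)) φ t ≤ C * ((1 + c) ^ N)⁻¹ * exp (t / 2)
  | 0, φ, C, _, _, hle => by rw [I_zero]; simpa using hle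
  | n + 1, φ, C, hm, hb, hle => by
    intro t
    rw [I_succ _ 0 hm hb]
    refine (I_le_exp hc n (measurable_L hm _) (abs_L_le hb _) (L_le_exp hm hb hc hle) t).trans
      (le_of_eq ?_)
    rw [pow_succ, mul_inv]; ring

lemma W_le_exp {U : ℝ → ℝ} (hc : Continuous U) (hb : ∀ t, |U t| ≤ 1) {C : ℝ}
    (hle : ∀ t, U t ≤ C * exp (t / 2)) : W U (4 / 3) ≤ C * exp (2 / 3) * (4 / 9) := by
  have hr : (0 : ℝ) < 3 / 2 := by norm_num
  have hi : IntegrableOn (fun z => z * exp (-z) * U (4 / 3 - z)) (Ioi 0) :=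
    (int_zexp_one le_rfl).1.mul_bdd (c := 1)
      (by fun_prop : Continuous fun z => U (4 / 3 - z)).aestronglyMeasurable
      (Eventually.of_forall fun z => hb _)
  have h1 : W U (4 / 3) ≤ ∫ z in Ioi (0 : ℝ), C * exp (2 / 3) * (z * exp (-(3 / 2 * z))) := by
    refine setIntegral_mono_on hi ((int_zexp hr le_rfl).1.const_mul _) measurableSet_Ioi
      fun z hz => ?_
    refine (mul_le_mul_of_nonneg_left (hle _) (mul_pos hz (exp_pos _)).le).trans (le_of_eq ?_)
    have : exp (-z) * exp ((4 / 3 - z) / 2) = exp (2 / 3) * exp (-(3 / 2 * z)) := by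
      rw [← exp_add, ← exp_add]; congr 1; ring
    linear_combination (C * z) * this
  rw [integral_const_mul, (int_zexp hr le_rfl).2] at h1
  refine h1.trans (le_of_eq ?_)
  norm_num

theorem sharp {δ : ℝ} (hδ : 0 < δ) : ∃ (N : ℕ) (a : Fin N → ℝ), 1 ≤ N ∧ ∑ i, a i = 0 ∧
    W (I N a step) (4 / 3) < K + δ := by
  have h1 : Tendsto (fun n : ℕ => ((1 + 1 / (n : ℝ)) ^ n)⁻¹ * exp (2 / 3) * (4 / 9)) atTop
      (𝓝 ((exp 1)⁻¹ * exp (2 / 3) * (4 / 9))) :=
    (((tendsto_one_add_div_pow_exp 1).inv₀ (exp_pos 1).ne').mul_const _).mul_const _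
  have e : (exp 1)⁻¹ * exp (2 / 3) * (4 / 9) = K := by
    unfold K
    rw [← exp_neg, ← exp_add, mul_comm]
    norm_num
  rw [e] at h1
  obtain ⟨n, hn1, hn2⟩ := ((h1.eventually (gt_mem_nhds (lt_add_of_pos_right K hδ))).and
    (eventually_ge_atTop 1)).exists
  have hn : (0 : ℝ) < n := by exact_mod_cast hn2
  refine ⟨n + 1, Fin.cons 2 (fun _ => -(2 * (1 / n))), by omega, ?_, ?_⟩
  · rw [Fin.sum_univ_succ]
    simp only [Fin.cons_zero, Fin.cons_succ, Finset.sum_const, Finset.card_univ, Fintype.card_fin,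
      nsmul_eq_mul]
    field_simp
    ring
  · rw [I_succ _ 0 measurable_step abs_step_le]
    simp only [Fin.cons_zero, Fin.succAbove_zero, Fin.cons_succ]
    rw [L_step two_pos]
    have hcl := cls_I n (fun _ => -(2 * (1 / (n : ℝ)))) (cls_E two_pos)
    have hle := I_le_exp (c := 1 / n) (by positivity) n (φ := E 2 0) (C := 1)
      (continuous_E 2 0).measurable (abs_E_le 2 0) (fun t => by simpa using E_le_exp 2 0 t)
    have := W_le_exp hcl.cont hcl.abs_le hle
    rw [one_mul] at this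
    exact this.trans_lt hn1

end Crest.Agent.R280
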